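import Vale.Agent.Lib.P208.H28.Main

/-!
# P208 (helper28): convex doubling subsets of a Hilbert space

A convex subset `K` of a real inner product space in which every open ball centred in `K`
is covered by at most `N` closed balls of half the radius centred in `K` spans (after
translation) a subspace of dimension `k` with `2 * k ≤ N`, and hence embeds isometrically
into the Euclidean space of dimension `k`.
-/

namespace Vale.Agent.Results.P208.H28_ConvexSubsets

open Metric Set

theorem result {H : Type*} [NormedAddCommGroup H] [InnerProductSpace ℝ H]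
    (K : Set H) (hK : Convex ℝ K) (N : ℕ)
    (hdoub : ∀ x ∈ K, ∀ r : ℝ, 0 < r → ∃ C : Finset H, (↑C ⊆ K) ∧ C.card ≤ N ∧
      K ∩ Metric.ball x r ⊆ ⋃ c ∈ C, Metric.closedBall c (r / 2)) :
    ∃ k : ℕ, 2 * k ≤ N ∧ ∃ f : K → EuclideanSpace ℝ (Fin k), Isometry f :=
  Vale.Agent.Lib.P208.H28.convex_doubling_embeds K hK N hdoub

end Vale.Agent.Results.P208.H28_ConvexSubsets
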