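import Mathlib
import Vale.Agent.Lib.P208.H5.Union

namespace Vale.Agent.Results.P208.UnionsOfConvexSets

/-- Let `K` be any subset of a real inner product space such that every part `K ∩ B(x, r)`,
`x ∈ K`, `r > 0`, is covered by at most `N` closed balls of radius `r / 2`.
(1) Every convex subset of `K` has a finite-dimensional direction space, of dimension `d` with
`2 d ≤ N`.
(2) If `K` is a union of `m ≥ 1` convex sets, then `K` embeds isometrically into the Euclidean
space of some dimension `k` with `k + 1 ≤ m (N / 2 + 1)`. -/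
theorem result {H : Type*} [NormedAddCommGroup H] [InnerProductSpace ℝ H]
    (K : Set H) (N : ℕ)
    (hdoub : ∀ x ∈ K, ∀ r : ℝ, 0 < r → ∃ B : Finset H, B.card ≤ N ∧
      K ∩ Metric.ball x r ⊆ ⋃ c ∈ B, Metric.closedBall c (r / 2)) :
    (∀ C : Set H, C ⊆ K → Convex ℝ C →
        FiniteDimensional ℝ (vectorSpan ℝ C) ∧ 2 * Module.finrank ℝ (vectorSpan ℝ C) ≤ N) ∧
    (∀ (m : ℕ) (C : Fin m → Set H), 1 ≤ m → (∀ i, Convex ℝ (C i)) → K = ⋃ i, C i →
        ∃ k : ℕ, k + 1 ≤ m * (N / 2 + 1) ∧
          ∃ f : K → EuclideanSpace ℝ (Fin k), Isometry f) :=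
  ⟨fun C hCK hC => Vale.Agent.Lib.P208.H5.convex_subset_finrank N hdoub C hCK hC,
    fun m C hm hC hK => Vale.Agent.Lib.P208.H5.union_convex_embeds N hdoub m C hm hC hK⟩

end Vale.Agent.Results.P208.UnionsOfConvexSets
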